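import Vale.Agent.P181.R2.H553.CDefs

set_option autoImplicit false

open scoped TensorProduct
open MvPolynomial

/-! # P181, row A1, second half: the family is symmetric and vanishes when two points coincide -/

namespace Vale.Agent.P181.H399

open Vale.Agent.P181 Vale.Agent.P181.H280 Vale.Agent.P181.H179 Vale.Agent.P181.H553

theorem evp_mul {r : ℕ} (P Q : MvPolynomial (Fin r × Fin 3) ℂ) (p : Fin r → Pt) :
    evp (P * Q) p = evp P p * evp Q p := by
  simp [evp]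

theorem evp_pow {r : ℕ} (P : MvPolynomial (Fin r × Fin 3) ℂ) (n : ℕ) (p : Fin r → Pt) :
    evp (P ^ n) p = evp P p ^ n := by
  simp [evp]

theorem evp_prod {r : ℕ} {ι : Type} (s : Finset ι) (P : ι → MvPolynomial (Fin r × Fin 3) ℂ)
    (p : Fin r → Pt) : evp (∏ i ∈ s, P i) p = ∏ i ∈ s, evp (P i) p := by
  simp only [evp, map_prod]

theorem evp_sum {r : ℕ} {ι : Type} (s : Finset ι) (P : ι → MvPolynomial (Fin r × Fin 3) ℂ)
    (p : Fin r → Pt) : evp (∑ i ∈ s, P i) p = ∑ i ∈ s, evp (P i) p := by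
  simp only [evp, map_sum]

/-- The value of a bracket. -/
theorem evp_br {r : ℕ} (i j k : Fin r) (p : Fin r → Pt) :
    evp (br i j k) p = Matrix.det (Matrix.of fun u s : Fin 3 => p (![i, j, k] u) s) := by
  rw [evp, br, RingHom.map_det]
  congr 1
  ext u s
  simp [RingHom.mapMatrix_apply, Matrix.map_apply]

theorem evp_br_perm {r : ℕ} (σ : Equiv.Perm (Fin r)) (i j k : Fin r) (p : Fin r → Pt) :
    evp (br i j k) (fun l => p (σ l)) = evp (br (σ i) (σ j) (σ k)) p := by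
  rw [evp_br, evp_br]
  congr 1
  ext u s
  simp only [Matrix.of_apply]
  fin_cases u <;> rfl

theorem evp_Wp_perm (σ ρ : Equiv.Perm (Fin 5)) (p : Fin 5 → Pt) :
    evp (Wp ρ) (fun l => p (σ l)) = evp (Wp (σ * ρ)) p := by
  rw [Wp, Wp, evp_prod, evp_prod]
  refine Finset.prod_congr rfl fun i _ => ?_
  rw [evp_br_perm]
  rfl

theorem evp_sumWp_perm (n : ℕ) (σ : Equiv.Perm (Fin 5)) (p : Fin 5 → Pt) :
    evp (∑ ρ : Equiv.Perm (Fin 5), Wp ρ ^ n) (fun l => p (σ l)) =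
      evp (∑ ρ : Equiv.Perm (Fin 5), Wp ρ ^ n) p := by
  rw [evp_sum, evp_sum]
  simp only [evp_pow, evp_Wp_perm]
  exact Equiv.sum_comp (Equiv.mulLeft σ) fun ρ => evp (Wp ρ) p ^ n

theorem evp_Dp_perm (σ : Equiv.Perm (Fin 5)) (p : Fin 5 → Pt) :
    evp Dp (fun l => p (σ l)) = evp Dp p := by
  rw [Dp, evp_prod, evp_prod]
  simp only [evp_br_perm]
  exact Equiv.prod_comp (Equiv.embeddingCongr (Equiv.refl (Fin 3)) σ)
    fun e : Fin 3 ↪ Fin 5 => evp (br (e 0) (e 1) (e 2)) p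

theorem evp_FF (N : ℕ) (t : Fin N × Fin N) (p : Fin 5 → Pt) :
    evp (FF N t) p = evp Dp p ^ ((t.1 : ℕ) + 1) * evp Kp p ^ (t.2 : ℕ) *
      evp Gp p ^ (10 * N - 6 * ((t.1 : ℕ) + 1) - 3 * (t.2 : ℕ)) := by
  rw [FF, evp_mul, evp_mul, evp_pow, evp_pow, evp_pow]

/-- ROW A1. -/
theorem FF_symm {N : ℕ} (t : Fin N × Fin N) (σ : Equiv.Perm (Fin 5)) (p : Fin 5 → Pt) :
    evp (FF N t) (fun l => p (σ l)) = evp (FF N t) p := by
  rw [evp_FF, evp_FF, evp_Dp_perm, Kp, evp_sumWp_perm, Gp, evp_sumWp_perm]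

/-- ROW A1. -/
theorem FF_zero {N : ℕ} (t : Fin N × Fin N) (p : Fin 5 → Pt) {i j : Fin 5} (hij : i ≠ j)
    (h : p i = p j) : evp (FF N t) p = 0 := by
  obtain ⟨k, hki, hkj⟩ : ∃ k : Fin 5, k ≠ i ∧ k ≠ j := by
    clear h hij
    revert i j
    decide
  have hinj : Function.Injective (![i, j, k] : Fin 3 → Fin 5) := by
    intro a b hab
    fin_cases a <;> fin_cases b <;> first | rfl | (exfalso; revert hab; simp; tauto)
  have h1 : evp (br i j k) p = 0 := by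
    rw [evp_br]
    refine Matrix.det_zero_of_row_eq (i := 0) (j := 1) (by decide) ?_
    ext s
    simp [h]
  have h2 : evp Dp p = 0 := by
    rw [Dp, evp_prod]
    exact Finset.prod_eq_zero (Finset.mem_univ (⟨![i, j, k], hinj⟩ : Fin 3 ↪ Fin 5)) h1
  rw [evp_FF, h2]
  simp

end Vale.Agent.P181.H399
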