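import Vale.Agent.P181.R2.H553.CDefs

set_option autoImplicit false

open scoped TensorProduct
open MvPolynomial

/-! # P181, row A3: the linear part at the frame -/

namespace Vale.Agent.P181.H399

open Vale.Agent.P181 Vale.Agent.P181.H280 Vale.Agent.P181.H179 Vale.Agent.P181.H553

/-- The integral for a sum of point measures. -/
theorem integ_sum_single {ι : Type} [Fintype ι] {r : ℕ} (x : ι → Pt) (w : ι → ℂ)
    (F : (Fin r → Pt) → ℂ) :
    integ (∑ i, Finsupp.single (x i) (w i)) F =
      ∑ g : Fin r → ι, (∏ l, w (g l)) * F (fun l => x (g l)) := by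
  classical
  set c : Meas := ∑ i, Finsupp.single (x i) (w i) with hc
  have hcv : ∀ q, c q = ∑ i, if x i = q then w i else 0 := by
    intro q
    rw [hc, Finsupp.finsetSum_apply]
    simp [Finsupp.single_apply]
  have hsub : c.support ⊆ Finset.univ.image x := by
    intro q hq
    rw [Finsupp.mem_support_iff, hcv] at hq
    obtain ⟨i, _, hi⟩ := Finset.exists_ne_zero_of_sum_ne_zero hq
    rw [Finset.mem_image]
    refine ⟨i, Finset.mem_univ _, ?_⟩
    by_contra hne
    simp [hne] at hi
  have h1 : integ c F = ∑ p ∈ Fintype.piFinset (fun _ : Fin r => Finset.univ.image x),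
      (∏ l, c (p l)) * F p := by
    rw [integ]
    refine Finset.sum_subset (Fintype.piFinset_subset _ _ fun _ => hsub) ?_
    intro p _ hp
    rw [Fintype.mem_piFinset] at hp
    push Not at hp
    obtain ⟨l, hl⟩ := hp
    have h9 : ∏ l, c (p l) = 0 :=
      Finset.prod_eq_zero (Finset.mem_univ l) (Finsupp.notMem_support_iff.1 hl)
    rw [h9, zero_mul]
  rw [h1]
  have h2 : ∀ p : Fin r → Pt, ∏ l, c (p l) =
      ∑ g : Fin r → ι, if (fun l => x (g l)) = p then ∏ l, w (g l) else 0 := by
    intro p
    simp only [hcv]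
    rw [Finset.prod_univ_sum, Fintype.piFinset_univ]
    refine Finset.sum_congr rfl fun g _ => ?_
    split_ifs with h
    · refine Finset.prod_congr rfl fun l _ => ?_
      rw [if_pos (congrFun h l)]
    · obtain ⟨l, hl⟩ := Function.ne_iff.1 h
      exact Finset.prod_eq_zero (Finset.mem_univ l) (if_neg hl)
  simp only [h2, Finset.sum_mul]
  rw [Finset.sum_comm]
  refine Finset.sum_congr rfl fun g _ => ?_
  rw [Finset.sum_eq_single (fun l => x (g l))]
  · simp
  · intro p _ hp
    rw [if_neg (Ne.symm hp), zero_mul]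
  · intro h
    exact absurd (Fintype.mem_piFinset.2 fun l =>
      Finset.mem_image_of_mem x (Finset.mem_univ _)) h

theorem integ_line (F : (Fin 5 → Pt) → ℂ)
    (hs : ∀ (σ : Equiv.Perm (Fin 5)) (p : Fin 5 → Pt), F (fun l => p (σ l)) = F p)
    (hz : ∀ (p : Fin 5 → Pt) (i j : Fin 5), i ≠ j → p i = p j → F p = 0) (h : Meas) :
    ∃ R : Polynomial ℂ, ∀ τ : ℂ,
      integ ((∑ k : Fin 4, Finsupp.single (frame k) (1 : ℂ)) + τ • h) F =
        τ * (120 * (h.sum fun p w => w * F (five p)) + τ * R.eval τ) := by
  classical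
  let H := {q // q ∈ h.support}
  let x : Fin 4 ⊕ H → Pt := Sum.elim frame (fun q => q.1)
  let w : ℂ → Fin 4 ⊕ H → ℂ := fun τ => Sum.elim (fun _ => 1) (fun q => τ * h q.1)
  have hc : ∀ τ : ℂ, (∑ k : Fin 4, Finsupp.single (frame k) (1 : ℂ)) + τ • h =
      ∑ i, Finsupp.single (x i) (w τ i) := by
    intro τ
    rw [Fintype.sum_sum_type]
    simp only [x, w, Sum.elim_inl, Sum.elim_inr]
    congr 1
    have h1 : h = ∑ q : H, Finsupp.single q.1 (h q.1) := by
      conv_lhs => rw [← Finsupp.sum_single h]
      rw [Finsupp.sum]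
      exact (Finset.sum_coe_sort h.support fun q => Finsupp.single q (h q)).symm
    conv_lhs => rw [h1]
    rw [Finset.smul_sum]
    refine Finset.sum_congr rfl fun q _ => ?_
    rw [Finsupp.smul_single, smul_eq_mul]
  let s : Fin 4 ⊕ H → Fin 5 := Sum.elim Fin.succ (fun _ => 0)
  let u : Fin 4 ⊕ H → ℂ := Sum.elim (fun _ => 1) (fun q => h q.1)
  let nu : (Fin 5 → Fin 4 ⊕ H) → ℕ := fun g =>
    (Finset.univ.filter fun l => (g l).isRight = true).card
  let cf : (Fin 5 → Fin 4 ⊕ H) → ℂ := fun g => (∏ l, u (g l)) * F (fun l => x (g l))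
  have ht : ∀ (τ : ℂ) (g : Fin 5 → Fin 4 ⊕ H),
      (∏ l, w τ (g l)) * F (fun l => x (g l)) = τ ^ nu g * cf g := by
    intro τ g
    have h1 : ∏ l, w τ (g l) = τ ^ nu g * ∏ l, u (g l) := by
      have h2 : ∀ l, w τ (g l) = (if (g l).isRight = true then τ else 1) * u (g l) := by
        intro l
        rcases hg : g l with k | q <;> simp [w, u]
      simp only [h2, Finset.prod_mul_distrib]
      rw [Finset.prod_ite, Finset.prod_const, Finset.prod_const_one, mul_one]
    rw [h1, mul_assoc]
  have hn : ∀ g : Fin 5 → Fin 4 ⊕ H, ¬ Function.Injective (fun l => s (g l)) →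
      2 ≤ nu g ∨ cf g = 0 := by
    intro g hg
    rw [Function.Injective] at hg
    push Not at hg
    obtain ⟨i, j, hij, hne⟩ := hg
    rcases hi : g i with k | q <;> rcases hj : g j with k' | q'
    · right
      rw [hi, hj] at hij
      simp only [s, Sum.elim_inl] at hij
      have hk : k = k' := Fin.succ_injective _ hij
      have : F (fun l => x (g l)) = 0 := hz _ i j hne (by simp only [hi, hj, hk])
      simp only [cf, this, mul_zero]
    · rw [hi, hj] at hij
      simp only [s, Sum.elim_inl, Sum.elim_inr] at hij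
      exact absurd hij (Fin.succ_ne_zero _)
    · rw [hi, hj] at hij
      simp only [s, Sum.elim_inl, Sum.elim_inr] at hij
      exact absurd hij.symm (Fin.succ_ne_zero _)
    · left
      refine Finset.one_lt_card.2 ⟨i, ?_, j, ?_, hne⟩ <;> simp [hi, hj]
  let e : H → Fin 5 → Fin 4 ⊕ H := fun q => Fin.cons (Sum.inr q) Sum.inl
  have hse : ∀ q a, s (e q a) = a := by
    intro q a
    refine Fin.cases ?_ (fun k => ?_) a <;> simp [s, e]
  have hxe : ∀ q : H, (fun a => x (e q a)) = five q.1 := by
    intro q
    ext1 a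
    refine Fin.cases ?_ (fun k => ?_) a <;> simp [x, e, five]
  have hmain : ∀ τ : ℂ, ∑ g ∈ Finset.univ.filter (fun g : Fin 5 → Fin 4 ⊕ H =>
      Function.Injective (fun l => s (g l))), τ ^ nu g * cf g =
        τ * (120 * (h.sum fun p w => w * F (five p))) := by
    intro τ
    have h1 : ∑ a ∈ (Finset.univ : Finset (Equiv.Perm (Fin 5) × H)),
        τ * (h a.2.1 * F (five a.2.1)) =
        ∑ g ∈ Finset.univ.filter (fun g : Fin 5 → Fin 4 ⊕ H =>
          Function.Injective (fun l => s (g l))), τ ^ nu g * cf g := by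
      refine Finset.sum_nbij (fun a => fun l => e a.2 (a.1 l)) ?_ ?_ ?_ ?_
      · rintro ⟨σ, q⟩ _
        simp only [Finset.mem_filter, Finset.mem_univ, true_and, hse]
        exact σ.injective
      · rintro ⟨σ, q⟩ _ ⟨σ', q'⟩ _ heq
        simp only at heq
        have h2 : σ = σ' := by
          ext1 l
          have := congrArg s (congrFun heq l)
          simpa only [hse] using this
        subst h2
        have h3 := congrFun heq (σ.symm 0)
        simp only [Equiv.apply_symm_apply, e, Fin.cons_zero] at h3
        rw [Sum.inr.inj h3]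
      · intro g hg
        simp only [Finset.coe_filter, Finset.mem_univ, true_and, Set.mem_ofPred_eq] at hg
        let σ : Equiv.Perm (Fin 5) := Equiv.ofBijective _ (Finite.injective_iff_bijective.1 hg)
        have hσ : ∀ l, σ l = s (g l) := fun l => rfl
        obtain ⟨q, hq⟩ : ∃ q, g (σ.symm 0) = Sum.inr q := by
          have h4 : s (g (σ.symm 0)) = 0 := by rw [← hσ, Equiv.apply_symm_apply]
          rcases h5 : g (σ.symm 0) with k | q
          · rw [h5] at h4
            exact absurd h4 (Fin.succ_ne_zero _)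
          · exact ⟨q, rfl⟩
        refine ⟨(σ, q), by simp, ?_⟩
        ext1 l
        simp only
        rcases h5 : g l with k | q'
        · have h6 : σ l = k.succ := by rw [hσ, h5]; rfl
          rw [h6]
          simp [e]
        · have h6 : σ l = 0 := by rw [hσ, h5]; rfl
          have h7 : l = σ.symm 0 := by rw [← h6, Equiv.symm_apply_apply]
          rw [h6]
          rw [← h7, h5] at hq
          rw [hq]
          simp [e]
      · rintro ⟨σ, q⟩ _
        simp only
        have hnu : nu (fun l => e q (σ l)) = 1 := by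
          simp only [nu]
          rw [Finset.card_eq_one]
          refine ⟨σ.symm 0, ?_⟩
          ext l
          simp only [Finset.mem_filter, Finset.mem_univ, true_and, Finset.mem_singleton]
          rw [Equiv.eq_symm_apply]
          generalize σ l = a
          refine Fin.cases ?_ (fun k => ?_) a
          · simp [e]
          · simp [e]
        have hcf : cf (fun l => e q (σ l)) = h q.1 * F (five q.1) := by
          simp only [cf]
          rw [hs σ (fun a => x (e q a)), hxe, Equiv.prod_comp σ (fun a => u (e q a)),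
            Fin.prod_univ_succ]
          simp [u, e]
        rw [hnu, hcf, pow_one]
    rw [← h1, Fintype.sum_prod_type]
    simp only
    rw [Finset.sum_const, Finset.card_univ, Fintype.card_perm,
      Fintype.card_fin, ← Finset.mul_sum, Finsupp.sum]
    have h2 : ∑ q : H, h q.1 * F (five q.1) = ∑ q ∈ h.support, h q * F (five q) :=
      Finset.sum_coe_sort h.support fun q => h q * F (five q)
    rw [h2]
    simp only [Nat.factorial, nsmul_eq_mul]
    push_cast
    ring
  refine ⟨∑ g ∈ Finset.univ.filter (fun g : Fin 5 → Fin 4 ⊕ H =>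
      ¬ Function.Injective (fun l => s (g l))), Polynomial.C (cf g) * Polynomial.X ^ (nu g - 2),
      fun τ => ?_⟩
  rw [hc, integ_sum_single]
  simp only [ht]
  rw [← Finset.sum_filter_add_sum_filter_not Finset.univ (fun g : Fin 5 → Fin 4 ⊕ H =>
      Function.Injective (fun l => s (g l))), hmain, mul_add]
  congr 1
  rw [Polynomial.eval_finsetSum, Finset.mul_sum, Finset.mul_sum]
  refine Finset.sum_congr rfl fun g hg => ?_
  rw [Finset.mem_filter] at hg
  simp only [Polynomial.eval_mul, Polynomial.eval_C, Polynomial.eval_pow, Polynomial.eval_X]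
  rcases hn g hg.2 with h2 | h2
  · obtain ⟨n, hn⟩ := Nat.exists_eq_add_of_le h2
    rw [hn, Nat.add_sub_cancel_left]
    ring
  · rw [h2]
    ring

end Vale.Agent.P181.H399
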