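import Vale.Agent.P181.R2.H553.Defs

/-!
ROW 7 of P181.ThreeRowBulk: products of the basic functions.
-/

set_option autoImplicit false

open scoped TensorProduct
open MvPolynomial

namespace Vale.Agent.P181.H553

open Vale.Agent.P181 Vale.Agent.P181.H280 Vale.Agent.P181.H179

namespace Row7

/-- Row 1c. -/
def MulStmt : Prop :=
  ∀ {a d₁ d₂ : ℕ} {l₁ l₂ : Fin 3 → ℕ} {f₁ f₂ : Meas → ℂ}, HWF a d₁ l₁ f₁ →
    HWF a d₂ l₂ f₂ → HWF a (d₁ + d₂) (l₁ + l₂) (f₁ * f₂)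

/-- Row 1d. -/
def LineStmt : Prop :=
  ∀ {a d : ℕ} {lam : Fin 3 → ℕ} {f : Meas → ℂ}, HWF a d lam f → ∀ c c' : Meas,
    ∃ P : Polynomial ℂ, ∀ τ : ℂ, f (c + τ • c') = P.eval τ

/-- Row 3. -/
def MeasStmt : Prop :=
  ∀ (a : ℕ) (t : ℕ → ℕ → ℂ), ∃ c : Meas, ∀ u v, u + v ≤ a → mom a u v c = t u v

/-- Row 4a. -/
def OneStmt : Prop := ∀ a : ℕ, ∃ f : Meas → ℂ, f ≠ 0 ∧ HWF a 1 ![a, 0, 0] f

/-- Row 4b. -/
def TwoStmt : Prop :=
  ∀ a q : ℕ, Even q → q ≤ a → ∃ f : Meas → ℂ, f ≠ 0 ∧ HWF a 2 ![2 * a - q, q, 0] f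

/-- Row 4c. -/
def ThreeStmt : Prop :=
  ∀ a q : ℕ, Even q → q ≤ a → ∃ f : Meas → ℂ, f ≠ 0 ∧ HWF a 3 ![3 * a - 2 * q, q, q] f

/-- Row 4d. -/
def OddStmt : Prop := ∀ a : ℕ, 3 ≤ a → ∃ f : Meas → ℂ, f ≠ 0 ∧ HWF a 3 ![3 * a - 3, 3, 0] f

/-- Row 5. -/
def SixStmt : Prop :=
  ∀ {a K₀ i j : ℕ}, 0 < i → 0 < K₀ → Even (i + j) → Even K₀ → j ≤ K₀ → i + K₀ ≤ a → i + j ≤ a →
    ∃ f : Meas → ℂ, HWF a 6 ![6 * a - 2 * (i + K₀), i + K₀, i + K₀] f ∧
      ∀ c : Meas,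
        (∀ u v u' v', 0 < u + v → 0 < u' + v' → u + u' + (v + v') = i + j →
          mom a u v c * mom a u' v' c = 0) →
        (∀ u v u' v', 0 < u + v → 0 < u' + v' → u + u' + (v + v') = K₀ + i - j →
          mom a u v c * mom a u' v' c = 0) →
        (∀ u v u' v', 0 < u + v → 0 < u' + v' → u + u' + (v + v') = K₀ →
          mom a u v c * mom a u' v' c = 0) →
        (∀ u v, u + v = K₀ + i - j → 0 < v → mom a u v c = 0) →
        (∀ u v, u + v = K₀ → 0 < u → mom a u v c = 0) →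
        f c = 8 * (-1) ^ i * mom a 0 0 c ^ 3 * mom a j i c * mom a (K₀ + i - j) 0 c *
          mom a 0 K₀ c

/-- There is a nonzero function of degree `d` and weight `l`. -/
def NZ (a d : ℕ) (l : Fin 3 → ℕ) : Prop := ∃ f : Meas → ℂ, f ≠ 0 ∧ HWF a d l f

theorem NZ.mul (hmul : MulStmt) (hline : LineStmt) {a d₁ d₂ : ℕ} {l₁ l₂ : Fin 3 → ℕ}
    (h₁ : NZ a d₁ l₁) (h₂ : NZ a d₂ l₂) : NZ a (d₁ + d₂) (l₁ + l₂) := by
  obtain ⟨f, hf, hF⟩ := h₁
  obtain ⟨g, hg, hG⟩ := h₂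
  refine ⟨f * g, ?_, hmul hF hG⟩
  obtain ⟨c, hc⟩ := Function.ne_iff.mp hf
  obtain ⟨c', hc'⟩ := Function.ne_iff.mp hg
  obtain ⟨P, hP⟩ := hline hF c (c' - c)
  obtain ⟨Q, hQ⟩ := hline hG c (c' - c)
  have hP0 : P ≠ 0 := by
    rintro rfl
    apply hc
    have := hP 0
    simpa using this
  have hQ0 : Q ≠ 0 := by
    rintro rfl
    apply hc'
    have := hQ 1
    simpa using this
  have hPQ : P * Q ≠ 0 := mul_ne_zero hP0 hQ0
  obtain ⟨τ, hτ⟩ : ∃ τ : ℂ, (P * Q).eval τ ≠ 0 := by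
    by_contra hcon
    push Not at hcon
    exact hPQ (Polynomial.funext (by simpa using hcon))
  intro h0
  apply hτ
  rw [Polynomial.eval_mul, ← hP, ← hQ]
  have := congrFun h0 (c + τ • (c' - c))
  simpa using this

theorem NZ.mul_pow (hmul : MulStmt) (hline : LineStmt) {a D d : ℕ} {L l : Fin 3 → ℕ}
    (h₁ : NZ a D L) (h₂ : NZ a d l) (n : ℕ) : NZ a (D + n * d) (L + n • l) := by
  induction n with
  | zero => simpa using h₁
  | succ n ih =>
    have := NZ.mul hmul hline ih h₂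
    have e1 : D + n * d + d = D + (n + 1) * d := by ring
    have e2 : L + n • l + l = L + (n + 1) • l := by rw [succ_nsmul, add_assoc]
    rwa [e1, e2] at this

theorem six13 (hmeas : MeasStmt) (hsix : SixStmt) {a : ℕ} (ha : 13 ≤ a) :
    NZ a 6 ![6 * a - 26, 13, 13] := by
  obtain ⟨f, hF, hval⟩ := hsix (a := a) (K₀ := 10) (i := 3) (j := 1) (by norm_num) (by norm_num)
    (by decide) (by decide) (by norm_num) (by omega) (by omega)
  obtain ⟨c, hc⟩ := hmeas a (fun u v => if (u = 0 ∧ v = 0) ∨ (u = 1 ∧ v = 3) ∨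
    (u = 12 ∧ v = 0) ∨ (u = 0 ∧ v = 10) then 1 else 0)
  have hz : ∀ u v, u + v ≤ a → ¬ ((u = 0 ∧ v = 0) ∨ (u = 1 ∧ v = 3) ∨
    (u = 12 ∧ v = 0) ∨ (u = 0 ∧ v = 10)) → mom a u v c = 0 := by
    intro u v huv h
    rw [hc u v huv, if_neg h]
  have h1 : ∀ u v, u + v ≤ a → ((u = 0 ∧ v = 0) ∨ (u = 1 ∧ v = 3) ∨
    (u = 12 ∧ v = 0) ∨ (u = 0 ∧ v = 10)) → mom a u v c = 1 := by
    intro u v huv h
    rw [hc u v huv, if_pos h]
  have hv := hval c
    (by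
      intro u v u' v' h1 h2 h3
      rw [hz u v (by omega) (by omega), zero_mul])
    (by
      intro u v u' v' h1 h2 h3
      by_cases h4 : (u = 1 ∧ v = 3) ∨ (u = 0 ∧ v = 10)
      · rw [hz u' v' (by omega) (by omega), mul_zero]
      · rw [hz u v (by omega) (by omega), zero_mul])
    (by
      intro u v u' v' h1 h2 h3
      by_cases h4 : (u = 1 ∧ v = 3)
      · rw [hz u' v' (by omega) (by omega), mul_zero]
      · rw [hz u v (by omega) (by omega), zero_mul])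
    (by
      intro u v h1 h2
      exact hz u v (by omega) (by omega))
    (by
      intro u v h1 h2
      exact hz u v (by omega) (by omega))
  refine ⟨f, ?_, ?_⟩
  · rintro rfl
    rw [h1 0 0 (by omega) (by omega), h1 1 3 (by omega) (by omega),
      h1 (10 + 3 - 1) 0 (by omega) (by omega), h1 0 10 (by omega) (by omega)] at hv
    norm_num at hv
  · have e : 6 * a - 26 = 6 * a - 2 * (3 + 10) := by norm_num
    rw [e]
    exact hF

end Row7

open Row7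

/-- ROW 7, from rows 1c, 1d, 3, 4, 5. -/
theorem exists_E_of (hmul : MulStmt) (hline : LineStmt) (hmeas : MeasStmt) (hone : OneStmt)
    (htwo : TwoStmt) (hthree : ThreeStmt) (hodd : OddStmt) (hsix : SixStmt)
    {a d s t : ℕ} (ha : 13 ≤ a) (ht : 13 ≤ t) (hts : t ≤ s) (h1 : s ≠ t + 1)
    (h : 2 * s + t + 14 * (a - 1) ≤ (a - 1) * d) :
    ∃ f : Meas → ℂ, f ≠ 0 ∧ HWF a d ![a * d - s - t, s, t] f := by
  -- parities
  obtain ⟨p, T, hp, hT, hTe⟩ : ∃ p T : ℕ, p ≤ 1 ∧ t = 13 * p + T ∧ Even T := by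
    rcases Nat.even_or_odd t with he | ho
    · exact ⟨0, t, by omega, by omega, he⟩
    · exact ⟨1, t - 13, by omega, by omega, by
        rcases ho with ⟨k, hk⟩; exact ⟨k - 6, by omega⟩⟩
  obtain ⟨p', U, hp', hU, hUe⟩ : ∃ p' U : ℕ, p' ≤ 1 ∧ s - t = 3 * p' + U ∧ Even U := by
    rcases Nat.even_or_odd (s - t) with he | ho
    · exact ⟨0, s - t, by omega, by omega, he⟩
    · exact ⟨1, s - t - 3, by omega, by
        rcases ho with ⟨k, hk⟩; omega, by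
        rcases ho with ⟨k, hk⟩; exact ⟨k - 1, by omega⟩⟩
  -- division
  obtain ⟨e, he, hee, hea, hea'⟩ : ∃ e : ℕ, 0 < e ∧ Even e ∧ e ≤ a ∧ a - 1 ≤ e :=
    ⟨2 * (a / 2), by omega, ⟨a / 2, by ring⟩, by omega, by omega⟩
  obtain ⟨B, ρ', hB, hρ', hρe'⟩ : ∃ B ρ' : ℕ, T = B * e + ρ' ∧ ρ' < e ∧ Even ρ' := by
    refine ⟨T / e, T % e, ?_, Nat.mod_lt _ he, ?_⟩
    · rw [mul_comm]; exact (Nat.div_add_mod T e).symm
    · rcases hee with ⟨k, hk⟩
      rcases hTe with ⟨m, hm⟩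
      have hd : 2 ∣ T % e := (Nat.dvd_mod_iff (by omega)).mpr (by omega)
      exact (even_iff_two_dvd).mpr hd
  obtain ⟨A, ρ, hA, hρ, hρe⟩ : ∃ A ρ : ℕ, U = A * e + ρ ∧ ρ < e ∧ Even ρ := by
    refine ⟨U / e, U % e, ?_, Nat.mod_lt _ he, ?_⟩
    · rw [mul_comm]; exact (Nat.div_add_mod U e).symm
    · rcases hee with ⟨k, hk⟩
      rcases hUe with ⟨m, hm⟩
      have hd : 2 ∣ U % e := (Nat.dvd_mod_iff (by omega)).mpr (by omega)
      exact (even_iff_two_dvd).mpr hd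
  -- the product
  have hM := @NZ.mul hmul hline a
  have q1 : NZ a 3 ![3 * a - 2 * ρ', ρ', ρ'] := hthree a ρ' hρe' (by omega)
  have q2 := NZ.mul_pow hmul hline q1 (hthree a e hee hea) B
  have q3 := NZ.mul_pow hmul hline q2 (six13 hmeas hsix ha) p
  have q4 := NZ.mul_pow hmul hline q3 (hodd a (by omega)) p'
  have q5 := NZ.mul_pow hmul hline q4 (htwo a e hee hea) A
  have q6 := NZ.mul hmul hline q5 (htwo a ρ hρe (by omega))
  have hdeg : 3 + B * 3 + p * 6 + p' * 3 + A * 2 + 2 ≤ d := by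
    have hk : (a - 1) * (3 * B + 2 * A + 14) ≤ (a - 1) * d := by
      refine le_trans ?_ h
      have h3 : (a - 1) * (3 * B + 2 * A) ≤ e * (3 * B + 2 * A) := Nat.mul_le_mul_right _ hea'
      have h4 : e * (3 * B + 2 * A) = 3 * (B * e) + 2 * (A * e) := by ring
      have h5 : (a - 1) * (3 * B + 2 * A + 14) = (a - 1) * (3 * B + 2 * A) + 14 * (a - 1) := by
        ring
      omega
    have := Nat.le_of_mul_le_mul_left hk (by omega)
    omega
  obtain ⟨n, hn⟩ := Nat.exists_eq_add_of_le hdeg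
  have q7 := NZ.mul_pow hmul hline q6 (hone a) n
  obtain ⟨f, hf0, hf⟩ := q7
  refine ⟨f, hf0, ?_⟩
  have e1 : 3 + B * 3 + p * 6 + p' * 3 + A * 2 + 2 + n * 1 = d := by omega
  rw [e1] at hf
  convert hf using 1
  have hBe : B * e ≤ B * a := Nat.mul_le_mul_left _ hea
  have hAe : A * e ≤ A * a := Nat.mul_le_mul_left _ hea
  funext i
  fin_cases i
  · -- first coordinate
    have hpa : 13 * p ≤ p * a := by nlinarith
    have hpa' : 3 * p' ≤ p' * a := by nlinarith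
    have z1 : B * (3 * a - 2 * e) = 3 * (B * a) - 2 * (B * e) := by
      rw [Nat.mul_sub]; congr 1 <;> ring
    have z2 : p * (6 * a - 26) = 6 * (p * a) - 26 * p := by
      rw [Nat.mul_sub]; congr 1 <;> ring
    have z3 : p' * (3 * a - 3) = 3 * (p' * a) - 3 * p' := by
      rw [Nat.mul_sub]; congr 1 <;> ring
    have z4 : A * (2 * a - e) = 2 * (A * a) - A * e := by
      rw [Nat.mul_sub]; congr 1; ring
    have z5 : a * d = 5 * a + 3 * (B * a) + 6 * (p * a) + 3 * (p' * a) + 2 * (A * a) + n * a := by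
      rw [← e1]; ring
    simp [z1, z2, z3, z4]
    omega
  · simp
    omega
  · simp
    omega

end Vale.Agent.P181.H553
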