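import Mathlib

set_option autoImplicit false

/-! # P181, row V3, part 1: the determinants of moment curve rows and coordinate rows -/

namespace Vale.Agent.P181.H399

open Polynomial

/-- Row functionals: coefficients and evaluations. -/
noncomputable def rv (r : Fin 3 ⊕ ℝ) (k : ℕ) : ℝ :=
  Sum.elim (fun c : Fin 3 => if k = (c : ℕ) then (1 : ℝ) else 0) (fun x => x ^ k) r

theorem coeff_pos {ι : Type} (s : Finset ι) (y : ι → ℝ) (hy : ∀ j ∈ s, 0 < y j) :
    0 < (∏ j ∈ s, (X + C (y j))).coeff 0 ∧ 0 ≤ (∏ j ∈ s, (X + C (y j))).coeff 1 ∧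
      (s.Nonempty → 0 < (∏ j ∈ s, (X + C (y j))).coeff 1) := by
  classical
  induction s using Finset.induction_on with
  | empty => simp [coeff_one]
  | insert a s ha ih =>
    obtain ⟨h0, h1, -⟩ := ih fun j hj => hy j (Finset.mem_insert_of_mem hj)
    have hya := hy a (Finset.mem_insert_self _ _)
    rw [Finset.prod_insert ha]
    have e0 : ((X + C (y a)) * ∏ j ∈ s, (X + C (y j))).coeff 0 =
        y a * (∏ j ∈ s, (X + C (y j))).coeff 0 := by
      rw [mul_coeff_zero]; simp
    have e1 : ((X + C (y a)) * ∏ j ∈ s, (X + C (y j))).coeff 1 =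
        (∏ j ∈ s, (X + C (y j))).coeff 0 + y a * (∏ j ∈ s, (X + C (y j))).coeff 1 := by
      rw [add_mul, coeff_add, coeff_C_mul]
      congr 1
      exact coeff_X_mul _ 0
    rw [e0, e1]
    refine ⟨by positivity, by positivity, fun _ => by positivity⟩

theorem det_rv_ne {i : ℕ} (ρ : Fin i → Fin 3 ⊕ ℝ) (hρ : Function.Injective ρ)
    (hneg : ∀ j x, ρ j = Sum.inr x → x < 0)
    (hE : (∃ e : ℕ, e ≤ 3 ∧ ∀ c : Fin 3, (∃ j, ρ j = Sum.inl c) ↔ (c : ℕ) < e) ∨
      (2 ≤ i ∧ ∀ c : Fin 3, (∃ j, ρ j = Sum.inl c) ↔ c = 1)) :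
    Matrix.det (Matrix.of fun j k : Fin i => rv (ρ j) k) ≠ 0 := by
  classical
  intro hdet
  obtain ⟨a, ha0, ha⟩ := Matrix.exists_mulVec_eq_zero_iff.2 hdet
  set f : ℝ[X] := ∑ k : Fin i, C (a k) * X ^ (k : ℕ) with hf
  have hco : ∀ n : ℕ, f.coeff n = ∑ k : Fin i, if n = (k : ℕ) then a k else 0 := by
    intro n
    rw [hf, finsetSum_coeff]
    refine Finset.sum_congr rfl fun k _ => ?_
    rw [coeff_C_mul, coeff_X_pow]
    split_ifs <;> simp
  have hcoef : ∀ k : Fin i, f.coeff k = a k := by
    intro k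
    rw [hco, Finset.sum_eq_single k]
    · simp
    · intro k' _ hne
      rw [if_neg]
      exact fun h => hne (Fin.ext h.symm)
    · simp
  have hdeg : f.degree < i := by
    rw [degree_lt_iff_coeff_zero]
    intro n hn
    rw [hco]
    refine Finset.sum_eq_zero fun k _ => if_neg ?_
    intro h
    have := k.2
    omega
  have hf0 : f ≠ 0 := by
    intro h
    apply ha0
    ext k
    rw [← hcoef, h]
    simp
  have hnat : f.natDegree < i := (natDegree_lt_iff_degree_lt hf0).2 hdeg
  have hrow : ∀ j, ∑ k : Fin i, rv (ρ j) k * a k = 0 := fun j => congrFun ha j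
  have hroot : ∀ j x, ρ j = Sum.inr x → f.eval x = 0 := by
    intro j x hj
    have h1 := hrow j
    rw [hj] at h1
    rw [hf, eval_finsetSum]
    rw [← h1]
    refine Finset.sum_congr rfl fun k _ => ?_
    simp [rv]
    ring
  have hcz : ∀ j c, ρ j = Sum.inl c → f.coeff (c : ℕ) = 0 := by
    intro j c hj
    have h1 := hrow j
    rw [hj] at h1
    rw [hco]
    refine Eq.trans (Finset.sum_congr rfl fun k _ => ?_) h1
    simp only [rv, Sum.elim_inl, ite_mul, one_mul, zero_mul]
    by_cases h : (c : ℕ) = (k : ℕ)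
    · rw [if_pos h, if_pos h.symm]
    · rw [if_neg h, if_neg (Ne.symm h)]
  set A : Finset (Fin i) := Finset.univ.filter fun j => (ρ j).isRight = true with hA
  set B : Finset (Fin i) := Finset.univ.filter fun j => ¬ (ρ j).isRight = true with hB
  have hAB : A.card + B.card = i := by
    rw [hA, hB, Finset.card_filter_add_card_filter_not, Finset.card_univ, Fintype.card_fin]
  set v : Fin i → ℝ := fun j => Sum.elim (fun _ => 0) id (ρ j) with hv
  have hvA : ∀ j ∈ A, ρ j = Sum.inr (v j) := by
    intro j hj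
    rw [hA, Finset.mem_filter] at hj
    rcases h : ρ j with c | x
    · rw [h] at hj; simp at hj
    · simp [hv, h]
  have hcB : ∀ j ∈ B, ∃ c, ρ j = Sum.inl c := by
    intro j hj
    rw [hB, Finset.mem_filter] at hj
    rcases h : ρ j with c | x
    · exact ⟨c, rfl⟩
    · rw [h] at hj; simp at hj
  set q : ℝ[X] := ∏ j ∈ A, (X - C (v j)) with hq
  have hqf : q ∣ f := by
    refine Finset.prod_dvd_of_coprime ?_ ?_
    · intro j hj j' hj' hne
      refine isCoprime_X_sub_C_of_isUnit_sub ?_
      refine IsUnit.mk0 _ (sub_ne_zero.2 fun h => hne (hρ ?_))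
      rw [hvA j hj, hvA j' hj', h]
    · intro j hj
      exact dvd_iff_isRoot.2 (hroot j _ (hvA j hj))
  have hqd : q.natDegree = A.card := by
    rw [hq]
    exact natDegree_finsetProd_X_sub_C_eq_card A v
  have hqm : q.Monic := monic_prod_of_monic _ _ fun j _ => monic_X_sub_C _
  rcases hE with ⟨e, he3, he⟩ | ⟨hi2, he⟩
  · -- initial segment
    have hX : (X : ℝ[X]) ^ e ∣ f := by
      rw [X_pow_dvd_iff]
      intro d hd
      obtain ⟨j, hj⟩ := (he ⟨d, by omega⟩).2 hd
      exact hcz j _ hj
    have hcop : IsCoprime ((X : ℝ[X]) ^ e) q := by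
      refine IsCoprime.pow_left (IsCoprime.prod_right fun j hj => ?_)
      have hne : (0 : ℝ) - v j ≠ 0 := by
        have := hneg j _ (hvA j hj)
        intro h0
        linarith
      have h1 : IsCoprime ((X : ℝ[X]) - C 0) (X - C (v j)) :=
        isCoprime_X_sub_C_of_isUnit_sub (isUnit_iff_ne_zero.2 hne)
      simpa using h1
    have hdvd := hcop.mul_dvd hX hqf
    have h2 := natDegree_le_of_dvd hdvd hf0
    rw [natDegree_mul (pow_ne_zero _ X_ne_zero) hqm.ne_zero, natDegree_X_pow, hqd] at h2
    have hBe : B.card = e := by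
      have h3 : B.card = (Finset.univ.filter fun c : Fin 3 => (c : ℕ) < e).card := by
        refine Finset.card_bij (fun j _ => Sum.elim id (fun _ => 0) (ρ j)) ?_ ?_ ?_
        · intro j hj
          obtain ⟨c, hc⟩ := hcB j hj
          simp only [hc, Sum.elim_inl, id, Finset.mem_filter, Finset.mem_univ, true_and]
          exact (he c).1 ⟨j, hc⟩
        · intro j hj j' hj' h
          obtain ⟨c, hc⟩ := hcB j hj
          obtain ⟨c', hc'⟩ := hcB j' hj'
          simp only [hc, hc', Sum.elim_inl, id] at h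
          exact hρ (by rw [hc, hc', h])
        · intro c hc
          simp only [Finset.mem_filter, Finset.mem_univ, true_and] at hc
          obtain ⟨j, hj⟩ := (he c).2 hc
          refine ⟨j, ?_, ?_⟩
          · rw [hB, Finset.mem_filter, hj]; simp
          · simp [hj]
      rw [h3]
      interval_cases e <;> decide
    omega
  · -- only the second coordinate
    have hB1 : B.card = 1 := by
      obtain ⟨j, hj⟩ := (he 1).2 rfl
      rw [Finset.card_eq_one]
      refine ⟨j, ?_⟩
      ext j'
      rw [Finset.mem_singleton]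
      constructor
      · intro h
        obtain ⟨c, hc⟩ := hcB j' h
        have := (he c).1 ⟨j', hc⟩
        exact hρ (by rw [hc, hj, this])
      · rintro rfl
        rw [hB, Finset.mem_filter, hj]; simp
    obtain ⟨g, hg⟩ := hqf
    have hg0 : g ≠ 0 := by
      rintro rfl
      exact hf0 (by rw [hg, mul_zero])
    have h2 : f.natDegree = q.natDegree + g.natDegree := by
      rw [hg, natDegree_mul hqm.ne_zero hg0]
    have h3 : g.natDegree = 0 := by omega
    obtain ⟨b, hb⟩ := natDegree_eq_zero.1 h3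
    obtain ⟨j, hj⟩ := (he 1).2 rfl
    have h4 : f.coeff 1 = 0 := hcz j 1 hj
    rw [hg, ← hb, coeff_mul_C] at h4
    have h5 : 0 < q.coeff 1 := by
      have h6 := (coeff_pos A (fun j => - v j) (fun j hj => by
        have := hneg j _ (hvA j hj)
        linarith)).2.2 (Finset.card_pos.1 (by omega))
      have h7 : q = ∏ j ∈ A, (X + C (- v j)) := by
        rw [hq]
        refine Finset.prod_congr rfl fun j _ => ?_
        rw [C_neg, sub_eq_add_neg]
      rwa [h7]
    rcases mul_eq_zero.1 h4 with h6 | h6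
    · exact h5.ne' h6
    · rw [h6, C_0] at hb
      exact hg0 hb.symm

end Vale.Agent.P181.H399
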