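import Vale.Agent.P181.R2.H959.VDefs
import Vale.Agent.P181.R2.H399.V3a

set_option autoImplicit false

/-! # P181, row V3: the curve -/

namespace Vale.Agent.P181.H399

open Vale.Agent.P181 Vale.Agent.P181.H280 Vale.Agent.P181.FR Polynomial

/-- The real version of `mnr`. -/
noncomputable def mR {B m i : ℕ} (him : i ≤ m) (S : Finset (Fin B)) (p : Fin B → Fin m → ℝ) : ℝ :=
  if h : S.card = i then
    Matrix.det (Matrix.of fun j k : Fin i => p (S.orderEmbOfFin h j) (Fin.castLE him k)) else 0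

theorem mnr_ofReal {B m i : ℕ} (him : i ≤ m) (S : Finset (Fin B)) (p : Fin B → Fin m → ℝ) :
    mnr him S (fun j k => ((p j k : ℝ) : ℂ)) = ((mR him S p : ℝ) : ℂ) := by
  rw [mnr, mR]
  split_ifs with h
  · have := Complex.ofRealHom.map_det
      (Matrix.of fun j k : Fin i => p (S.orderEmbOfFin h j) (Fin.castLE him k))
    rw [Complex.ofRealHom_eq_coe] at this
    rw [this]
    rfl
  · simp

/-- Labels of the fixed points. -/
noncomputable def labP (i : ℕ) (j : Fin (2 * i - 1)) : Fin 3 ⊕ ℝ :=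
  if (j : ℕ) = 0 then Sum.inl 0 else if (j : ℕ) = 1 then Sum.inl 1 else Sum.inr (-(j : ℝ))

theorem labP_inj (i : ℕ) : Function.Injective (labP i) := by
  intro j j' h
  simp only [labP] at h
  split_ifs at h with h1 h2 h3 h4 h5 h6 h7
  · exact Fin.ext (by omega)
  · simp at h
  · simp at h
  · exact Fin.ext (by omega)
  · simp only [Sum.inr.injEq, neg_inj, Nat.cast_inj] at h
    exact Fin.ext h

/-- Labels of all the points, the last one being the coordinate vector `c`. -/
noncomputable def lab (i : ℕ) (c : Fin 3) : Fin (2 * i - 1 + 1) → Fin 3 ⊕ ℝ :=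
  Fin.snoc (α := fun _ => Fin 3 ⊕ ℝ) (labP i) (Sum.inl c)

/-- The fixed points. -/
noncomputable def PR (i m : ℕ) (j : Fin (2 * i - 1)) (k : Fin m) : ℝ := rv (labP i j) k

/-- Coordinate vectors. -/
noncomputable def eR (m : ℕ) (c : Fin 3) (k : Fin m) : ℝ := rv (Sum.inl c) k

theorem snoc_eq (i m : ℕ) (c : Fin 3) :
    (Fin.snoc (α := fun _ => Fin m → ℝ) (PR i m) (eR m c) : Fin (2 * i - 1 + 1) → Fin m → ℝ) =
      fun j (k : Fin m) => rv (lab i c j) (k : ℕ) := by
  ext j k
  refine Fin.lastCases ?_ (fun j => ?_) j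
  · simp [lab, eR]
  · simp [lab, PR]

/-- The nonvanishing minors. -/
theorem mR_ne {i m : ℕ} (hi : 3 ≤ i) (him : i ≤ m) (c : Fin 3) (T : Finset (Fin (2 * i - 1 + 1)))
    (hT : T.card = i) (hinj : Set.InjOn (lab i c) T)
    (h2 : (∃ j ∈ T, lab i c j = Sum.inl 2) → (∃ j ∈ T, lab i c j = Sum.inl 0) ∧
      (∃ j ∈ T, lab i c j = Sum.inl 1)) :
    mR him T (Fin.snoc (α := fun _ => Fin m → ℝ) (PR i m) (eR m c)) ≠ 0 := by
  rw [snoc_eq, mR, dif_pos hT]
  set ρ : Fin i → Fin 3 ⊕ ℝ := fun j => lab i c (T.orderEmbOfFin hT j) with hρ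
  have hmem : ∀ j, T.orderEmbOfFin hT j ∈ T := fun j => Finset.orderEmbOfFin_mem T hT j
  have hex : ∀ l : Fin 3 ⊕ ℝ, (∃ j, ρ j = l) ↔ ∃ j ∈ T, lab i c j = l := by
    intro l
    constructor
    · rintro ⟨j, hj⟩
      exact ⟨_, hmem j, hj⟩
    · rintro ⟨j, hj, hl⟩
      have : (j : Fin (2 * i - 1 + 1)) ∈ Set.range (T.orderEmbOfFin hT) := by
        rw [Finset.range_orderEmbOfFin]; exact hj
      obtain ⟨j', rfl⟩ := this
      exact ⟨j', hl⟩
  refine det_rv_ne ρ ?_ ?_ ?_
  · intro j j' h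
    exact (T.orderEmbOfFin hT).injective (hinj (hmem j) (hmem j') h)
  · intro j x hx
    simp only [hρ] at hx
    revert hx
    generalize T.orderEmbOfFin hT j = l
    refine Fin.lastCases ?_ (fun l => ?_) l
    · intro hx
      simp [lab] at hx
    · intro hx
      simp only [lab, Fin.snoc_castSucc, labP] at hx
      split_ifs at hx with h1 h2
      rw [← Sum.inr.inj hx]
      have : (0 : ℝ) < (l : ℝ) := by exact_mod_cast Nat.pos_of_ne_zero h1
      linarith
  · by_cases e0 : ∃ j, ρ j = Sum.inl 0 <;> by_cases e1 : ∃ j, ρ j = Sum.inl 1 <;>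
      by_cases e2 : ∃ j, ρ j = Sum.inl 2
    · left
      refine ⟨3, le_rfl, fun c' => ?_⟩
      fin_cases c' <;> simp_all
    · left
      refine ⟨2, by norm_num, fun c' => ?_⟩
      fin_cases c'
      · simpa using e0
      · simpa using e1
      · simpa using e2
    · exact absurd ((hex _).2 (h2 ((hex _).1 e2)).2) e1
    · left
      refine ⟨1, by norm_num, fun c' => ?_⟩
      fin_cases c'
      · simpa using e0
      · simpa using e1
      · simpa using e2
    · exact absurd ((hex _).2 (h2 ((hex _).1 e2)).1) e0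
    · right
      refine ⟨by omega, fun c' => ?_⟩
      fin_cases c'
      · simpa using e0
      · simpa using e1
      · simpa using e2
    · exact absurd ((hex _).2 (h2 ((hex _).1 e2)).1) e0
    · left
      refine ⟨0, by norm_num, fun c' => ?_⟩
      fin_cases c'
      · simpa using e0
      · simpa using e1
      · simpa using e2

theorem mR_expand {i m : ℕ} (him : i ≤ m) (T : Finset (Fin (2 * i - 1 + 1))) (hT : T.card = i)
    (hl : Fin.last (2 * i - 1) ∈ T) (P : Fin (2 * i - 1) → Fin m → ℝ) (u v w : Fin m → ℝ)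
    (a b : ℝ) :
    mR him T (Fin.snoc (α := fun _ => Fin m → ℝ) P (fun k => a * u k + b * v k + w k)) =
      a * mR him T (Fin.snoc (α := fun _ => Fin m → ℝ) P u) +
        b * mR him T (Fin.snoc (α := fun _ => Fin m → ℝ) P v) +
        mR him T (Fin.snoc (α := fun _ => Fin m → ℝ) P w) := by
  have hr : Fin.last (2 * i - 1) ∈ Set.range (T.orderEmbOfFin hT) := by
    rw [Finset.range_orderEmbOfFin]; exact hl
  obtain ⟨r, hr⟩ := hr
  set M0 : Matrix (Fin i) (Fin i) ℝ := Matrix.of fun j k =>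
    (Fin.snoc (α := fun _ => Fin m → ℝ) P 0 : Fin (2 * i - 1 + 1) → Fin m → ℝ)
      (T.orderEmbOfFin hT j) (Fin.castLE him k) with hM0
  have hM : ∀ x : Fin m → ℝ, mR him T (Fin.snoc (α := fun _ => Fin m → ℝ) P x) =
      Matrix.det (Matrix.updateRow M0 r fun k => x (Fin.castLE him k)) := by
    intro x
    rw [mR, dif_pos hT]
    congr 1
    ext j k
    rw [Matrix.updateRow_apply]
    split_ifs with h
    · subst h
      simp only [Matrix.of_apply, hr, Fin.snoc_last]
    · simp only [hM0, Matrix.of_apply]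
      have h1 : T.orderEmbOfFin hT j ≠ Fin.last (2 * i - 1) := by
        intro h2
        exact h ((T.orderEmbOfFin hT).injective (h2.trans hr.symm))
      obtain ⟨l, hl⟩ := Fin.exists_castSucc_eq.2 h1
      rw [← hl, Fin.snoc_castSucc, Fin.snoc_castSucc]
  rw [hM, hM, hM, hM]
  have h1 : (fun k : Fin i => a * u (Fin.castLE him k) + b * v (Fin.castLE him k) +
      w (Fin.castLE him k)) = (a • fun k : Fin i => u (Fin.castLE him k)) +
        (b • fun k : Fin i => v (Fin.castLE him k)) + fun k : Fin i => w (Fin.castLE him k) := rfl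
  rw [h1, Matrix.det_updateRow_add, Matrix.det_updateRow_add, Matrix.det_updateRow_smul,
    Matrix.det_updateRow_smul]

theorem mR_const {i m : ℕ} (him : i ≤ m) (T : Finset (Fin (2 * i - 1 + 1))) (hT : T.card = i)
    (hl : Fin.last (2 * i - 1) ∉ T) (P : Fin (2 * i - 1) → Fin m → ℝ) (u v : Fin m → ℝ) :
    mR him T (Fin.snoc (α := fun _ => Fin m → ℝ) P u) =
      mR him T (Fin.snoc (α := fun _ => Fin m → ℝ) P v) := by
  rw [mR, mR, dif_pos hT, dif_pos hT]
  congr 1
  ext j k
  have h1 : T.orderEmbOfFin hT j ≠ Fin.last (2 * i - 1) := by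
    intro h2
    exact hl (h2 ▸ Finset.orderEmbOfFin_mem T hT j)
  obtain ⟨l, hl⟩ := Fin.exists_castSucc_eq.2 h1
  simp only [Matrix.of_apply]
  rw [← hl, Fin.snoc_castSucc, Fin.snoc_castSucc]

theorem mR_zero {i m : ℕ} (him : i ≤ m) (T : Finset (Fin (2 * i - 1 + 1))) (hT : T.card = i)
    (hl : Fin.last (2 * i - 1) ∈ T) (c : Fin 3) (z : Fin (2 * i - 1)) (hz : z.castSucc ∈ T)
    (hc : labP i z = Sum.inl c) :
    mR him T (Fin.snoc (α := fun _ => Fin m → ℝ) (PR i m) (eR m c)) = 0 := by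
  rw [snoc_eq, mR, dif_pos hT]
  have h1 : Fin.last (2 * i - 1) ∈ Set.range (T.orderEmbOfFin hT) := by
    rw [Finset.range_orderEmbOfFin]; exact hl
  have h2 : z.castSucc ∈ Set.range (T.orderEmbOfFin hT) := by
    rw [Finset.range_orderEmbOfFin]; exact hz
  obtain ⟨r, hr⟩ := h1
  obtain ⟨s, hs⟩ := h2
  refine Matrix.det_zero_of_row_eq (i := r) (j := s) ?_ ?_
  · rintro rfl
    rw [hr] at hs
    exact absurd hs.symm (Fin.castSucc_lt_last z).ne
  · ext k
    simp only [Matrix.of_apply, hr, hs, lab, Fin.snoc_last, Fin.snoc_castSucc, hc]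

theorem lab_injOn {i : ℕ} (c : Fin 3) (T : Finset (Fin (2 * i - 1 + 1)))
    (h : Fin.last (2 * i - 1) ∉ T ∨ ∀ z : Fin (2 * i - 1), z.castSucc ∈ T →
      labP i z ≠ Sum.inl c) : Set.InjOn (lab i c) T := by
  intro j hj j' hj' he
  revert hj hj' he
  refine Fin.lastCases ?_ (fun j => ?_) j
  · refine Fin.lastCases ?_ (fun j' => ?_) j'
    · intro _ _ _; rfl
    · intro hj hj' he
      simp only [lab, Fin.snoc_last, Fin.snoc_castSucc] at he
      rcases h with h | h
      · exact absurd hj h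
      · exact absurd he.symm (h j' hj')
  · refine Fin.lastCases ?_ (fun j' => ?_) j'
    · intro hj hj' he
      simp only [lab, Fin.snoc_last, Fin.snoc_castSucc] at he
      rcases h with h | h
      · exact absurd hj' h
      · exact absurd he (h j hj)
    · intro hj hj' he
      simp only [lab, Fin.snoc_castSucc] at he
      rw [labP_inj i he]

theorem labP_zero {i : ℕ} (h : 0 < 2 * i - 1) : labP i ⟨0, h⟩ = Sum.inl 0 := by simp [labP]

theorem labP_one {i : ℕ} (h : 1 < 2 * i - 1) : labP i ⟨1, h⟩ = Sum.inl 1 := by simp [labP]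

theorem labP_ne_two {i : ℕ} (z : Fin (2 * i - 1)) : labP i z ≠ Sum.inl 2 := by
  rw [labP]
  split_ifs <;> simp

/-- the polynomials -/
theorem pol0 {La : ℕ} (hLa : 2 ≤ La) (c0 c1 c2 : ℝ) (h : c0 ≠ 0) :
    (C c0 * X ^ La + C c1 * X ^ (La - 1) + C c2).natDegree = La := by
  refine natDegree_eq_of_le_of_coeff_ne_zero ?_ ?_
  · compute_degree
  · have h1 : La ≠ La - 1 := by omega
    have h2 : La ≠ 0 := by omega
    simp [coeff_X_pow, coeff_C, h1, h2, h]

theorem pol1 {La : ℕ} (hLa : 2 ≤ La) (c1 c2 : ℝ) (h : c1 ≠ 0) :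
    (C 0 * X ^ La + C c1 * X ^ (La - 1) + C c2).natDegree = La - 1 := by
  refine natDegree_eq_of_le_of_coeff_ne_zero ?_ ?_
  · rw [C_0, zero_mul, zero_add]
    compute_degree
  · have h2 : La - 1 ≠ 0 := by omega
    simp [coeff_X_pow, coeff_C, h2, h]

theorem sq_props {κ : ℝ} (hκ : κ ≠ 0) (p : ℝ[X]) (hp : p ≠ 0) :
    0 < ((C κ * p) ^ 2).leadingCoeff ∧ ((C κ * p) ^ 2).natDegree = 2 * p.natDegree := by
  constructor
  · rw [leadingCoeff_pow, leadingCoeff_mul, leadingCoeff_C]
    have : p.leadingCoeff ≠ 0 := leadingCoeff_ne_zero.2 hp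
    positivity
  · rw [natDegree_pow, natDegree_C_mul hκ]

/-- the points of the curve -/
theorem snoc_curve (i m La : ℕ) (t : ℝ) :
    (Fin.snoc (α := fun _ => Fin m → ℂ) (fun j k => ((PR i m j k : ℝ) : ℂ))
      (curve m La (t : ℂ)) : Fin (2 * i - 1 + 1) → Fin m → ℂ) =
    fun j k => (((Fin.snoc (α := fun _ => Fin m → ℝ) (PR i m)
      (fun k => t ^ La * eR m 0 k + t ^ (La - 1) * eR m 1 k + eR m 2 k) :
        Fin (2 * i - 1 + 1) → Fin m → ℝ) j k : ℝ) : ℂ) := by
  ext j k
  refine Fin.lastCases ?_ (fun j => ?_) j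
  · simp only [Fin.snoc_last, curve, eR, rv, Sum.elim_inl]
    by_cases h0 : (k : ℕ) = 0
    · simp [h0]
    · by_cases h1 : (k : ℕ) = 1
      · simp [h1]
      · by_cases h2 : (k : ℕ) = 2
        · simp [h2]
        · simp [h0, h1, h2]
  · simp only [Fin.snoc_castSucc]

/-- the member of the pair `S`, `Sᶜ` which contains the last point -/
def TS {i : ℕ} (S : Finset (Fin (2 * i - 1 + 1))) : Finset (Fin (2 * i - 1 + 1)) :=
  if Fin.last (2 * i - 1) ∈ S then S else Sᶜ

theorem TS_props {i : ℕ} (hi : 3 ≤ i) {S : Finset (Fin (2 * i - 1 + 1))} (hS : S ∈ sub i) :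
    (TS S).card = i ∧ (TS S)ᶜ.card = i ∧ Fin.last (2 * i - 1) ∈ TS S ∧
      Fin.last (2 * i - 1) ∉ (TS S)ᶜ := by
  rw [sub, Finset.mem_powersetCard_univ] at hS
  have h1 : Sᶜ.card = i := by
    rw [Finset.card_compl, Fintype.card_fin, hS]
    omega
  rw [TS]
  split_ifs with h
  · exact ⟨hS, h1, h, by simpa using h⟩
  · exact ⟨h1, by rw [compl_compl]; exact hS, by simpa using h, by simpa using h⟩

/-- V3 -/
theorem YS_curve {m i : ℕ} (hi : 3 ≤ i) (him : i ≤ m) :
    ∃ (P : Fin (2 * i - 1) → Fin m → ℂ) (ty : Finset (Fin (2 * i - 1 + 1)) → Fin 3),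
      (∃ S ∈ sub i, ty S = 1) ∧ (∃ S ∈ sub i, ty S = 2) ∧ (∃ S ∈ sub i, ty S = 0) ∧
      ∀ La : ℕ, 2 ≤ La → ∃ y : Finset (Fin (2 * i - 1 + 1)) → Polynomial ℝ,
        (∀ S ∈ sub i, 0 < (y S).leadingCoeff ∧
          (y S).natDegree = if ty S = 0 then 2 * La else if ty S = 1 then 2 * La - 2 else 0) ∧
        ∀ S ∈ sub i, ∀ t : ℝ, YS him S (Fin.snoc (α := fun _ => Fin m → ℂ) P (curve m La t)) =
          (((y S).eval t : ℝ) : ℂ) := by
  classical
  have hz0 : 0 < 2 * i - 1 := by omega
  have hz1 : 1 < 2 * i - 1 := by omega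
  set z0 : Fin (2 * i - 1) := ⟨0, hz0⟩ with hz0d
  set z1 : Fin (2 * i - 1) := ⟨1, hz1⟩ with hz1d
  have l0 : labP i z0 = Sum.inl 0 := labP_zero hz0
  have l1 : labP i z1 = Sum.inl 1 := labP_one hz1
  have l0' : ∀ z, labP i z = Sum.inl 0 → z = z0 := fun z h => labP_inj i (h.trans l0.symm)
  have l1' : ∀ z, labP i z = Sum.inl 1 → z = z1 := fun z h => labP_inj i (h.trans l1.symm)
  have z01 : z0.castSucc ≠ z1.castSucc := by
    intro h
    have := congrArg (fun x : Fin (2 * i - 1 + 1) => (x : ℕ)) h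
    simp [hz0d, hz1d] at this
  have z0l : z0.castSucc ≠ Fin.last (2 * i - 1) := (Fin.castSucc_lt_last z0).ne
  have z1l : z1.castSucc ≠ Fin.last (2 * i - 1) := (Fin.castSucc_lt_last z1).ne
  obtain ⟨ty, htyd⟩ : ∃ ty : Finset (Fin (2 * i - 1 + 1)) → Fin 3, ∀ S, ty S =
      if z0.castSucc ∉ TS S then 0 else if z1.castSucc ∉ TS S then 1 else 2 := ⟨_, fun _ => rfl⟩
  refine ⟨fun j k => ((PR i m j k : ℝ) : ℂ), ty, ?_, ?_, ?_, fun La hLa => ?_⟩
  · obtain ⟨S, h1, h2, h3⟩ := Finset.exists_subsuperset_card_eq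
      (s := {Fin.last (2 * i - 1), z0.castSucc}) (t := Finset.univ.erase z1.castSucc) (n := i)
      (by
        intro x hx
        rw [Finset.mem_erase]
        refine ⟨?_, Finset.mem_univ _⟩
        rw [Finset.mem_insert, Finset.mem_singleton] at hx
        rcases hx with rfl | rfl
        · exact z1l.symm
        · exact z01)
      (Finset.card_le_two.trans (by omega))
      (by rw [Finset.card_erase_of_mem (Finset.mem_univ _), Finset.card_univ, Fintype.card_fin]
          omega)
    have hl : Fin.last (2 * i - 1) ∈ S := h1 (by simp)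
    refine ⟨S, by rw [sub, Finset.mem_powersetCard_univ]; exact h3, ?_⟩
    have hTS : TS S = S := by rw [TS, if_pos hl]
    rw [htyd, hTS, if_neg (not_not.2 (h1 (by simp))), if_pos fun h => (Finset.mem_erase.1 (h2 h)).1 rfl]
  · obtain ⟨S, h1, h3⟩ := Finset.exists_superset_card_eq
      (s := {Fin.last (2 * i - 1), z0.castSucc, z1.castSucc}) (n := i)
      (Finset.card_le_three.trans (by omega))
      (by rw [Fintype.card_fin]; omega)
    have hl : Fin.last (2 * i - 1) ∈ S := h1 (by simp)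
    refine ⟨S, by rw [sub, Finset.mem_powersetCard_univ]; exact h3, ?_⟩
    have hTS : TS S = S := by rw [TS, if_pos hl]
    rw [htyd, hTS, if_neg (not_not.2 (h1 (by simp))), if_neg (not_not.2 (h1 (by simp)))]
  · obtain ⟨S, h1, h2, h3⟩ := Finset.exists_subsuperset_card_eq
      (s := {Fin.last (2 * i - 1)}) (t := Finset.univ.erase z0.castSucc) (n := i)
      (by
        intro x hx
        rw [Finset.mem_erase]
        refine ⟨?_, Finset.mem_univ _⟩
        rw [Finset.mem_singleton] at hx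
        rw [hx]
        exact z0l.symm)
      (by rw [Finset.card_singleton]; omega)
      (by rw [Finset.card_erase_of_mem (Finset.mem_univ _), Finset.card_univ, Fintype.card_fin]
          omega)
    have hl : Fin.last (2 * i - 1) ∈ S := h1 (by simp)
    refine ⟨S, by rw [sub, Finset.mem_powersetCard_univ]; exact h3, ?_⟩
    have hTS : TS S = S := by rw [TS, if_pos hl]
    rw [htyd, hTS, if_pos fun h => (Finset.mem_erase.1 (h2 h)).1 rfl]
  · -- the polynomials
    let L : Fin 3 → Finset (Fin (2 * i - 1 + 1)) → ℝ := fun c T =>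
      mR him T (Fin.snoc (α := fun _ => Fin m → ℝ) (PR i m) (eR m c))
    refine ⟨fun S => (C (L 2 (TS S)ᶜ) * (C (L 0 (TS S)) * X ^ La + C (L 1 (TS S)) * X ^ (La - 1) +
      C (L 2 (TS S)))) ^ 2, fun S hS => ?_, fun S hS t => ?_⟩
    · obtain ⟨hT, hTc, hl, hlc⟩ := TS_props hi hS
      have hno2 : ∀ (T : Finset (Fin (2 * i - 1 + 1))) (c : Fin 3),
          (c ≠ 2 ∨ Fin.last (2 * i - 1) ∉ T) → ¬ ∃ j ∈ T, lab i c j = Sum.inl 2 := by
        rintro T c h ⟨j, hj, hj2⟩
        revert hj hj2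
        refine Fin.lastCases ?_ (fun j => ?_) j
        · intro hj hj2
          simp only [lab, Fin.snoc_last] at hj2
          rcases h with h | h
          · exact h (Sum.inl.inj hj2)
          · exact h hj
        · intro hj hj2
          simp only [lab, Fin.snoc_castSucc] at hj2
          exact labP_ne_two j hj2
      have hκ : L 2 (TS S)ᶜ ≠ 0 := mR_ne hi him 2 _ hTc (lab_injOn _ _ (Or.inl hlc))
        fun h => absurd h (hno2 _ _ (Or.inr hlc))
      simp only
      by_cases h0 : z0.castSucc ∈ TS S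
      · have e0 : L 0 (TS S) = 0 := mR_zero him _ hT hl 0 z0 h0 l0
        by_cases h1 : z1.castSucc ∈ TS S
        · have e1 : L 1 (TS S) = 0 := mR_zero him _ hT hl 1 z1 h1 l1
          have e2 : L 2 (TS S) ≠ 0 := by
            refine mR_ne hi him 2 _ hT (lab_injOn _ _ (Or.inr fun z _ => labP_ne_two z)) ?_
            intro _
            exact ⟨⟨z0.castSucc, h0, by simp only [lab, Fin.snoc_castSucc, l0]⟩,
              ⟨z1.castSucc, h1, by simp only [lab, Fin.snoc_castSucc, l1]⟩⟩
          have hty : ty S = 2 := by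
            rw [htyd, if_neg (not_not.2 h0), if_neg (not_not.2 h1)]
          rw [hty, if_neg (by decide), if_neg (by decide), e0, e1]
          have h5 : (C (0 : ℝ) * X ^ La + C 0 * X ^ (La - 1) + C (L 2 (TS S)) : ℝ[X]) =
              C (L 2 (TS S)) := by simp
          rw [h5]
          obtain ⟨h6, h7⟩ := sq_props hκ (C (L 2 (TS S))) (C_ne_zero.2 e2)
          exact ⟨h6, by rw [h7, natDegree_C]⟩
        · have e1 : L 1 (TS S) ≠ 0 := by
            refine mR_ne hi him 1 _ hT (lab_injOn _ _ (Or.inr fun z hz h => ?_))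
              fun h => absurd h (hno2 _ _ (Or.inl (by decide)))
            exact h1 (l1' z h ▸ hz)
          have hty : ty S = 1 := by
            rw [htyd, if_neg (not_not.2 h0), if_pos h1]
          rw [hty, if_neg (by decide), if_pos rfl, e0]
          have h5 := pol1 hLa (L 1 (TS S)) (L 2 (TS S)) e1
          obtain ⟨h6, h7⟩ := sq_props hκ
            (C 0 * X ^ La + C (L 1 (TS S)) * X ^ (La - 1) + C (L 2 (TS S))) (by
              intro h
              rw [h, natDegree_zero] at h5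
              omega)
          exact ⟨h6, by rw [h7, h5]; omega⟩
      · have e0 : L 0 (TS S) ≠ 0 := by
          refine mR_ne hi him 0 _ hT (lab_injOn _ _ (Or.inr fun z hz h => ?_))
            fun h => absurd h (hno2 _ _ (Or.inl (by decide)))
          exact h0 (l0' z h ▸ hz)
        have hty : ty S = 0 := by
          rw [htyd, if_pos h0]
        rw [hty, if_pos rfl]
        have h5 := pol0 hLa (L 0 (TS S)) (L 1 (TS S)) (L 2 (TS S)) e0
        obtain ⟨h6, h7⟩ := sq_props hκ
          (C (L 0 (TS S)) * X ^ La + C (L 1 (TS S)) * X ^ (La - 1) + C (L 2 (TS S))) (by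
            intro h
            rw [h, natDegree_zero] at h5
            omega)
        exact ⟨h6, by rw [h7, h5]⟩
    · obtain ⟨hT, hTc, hl, hlc⟩ := TS_props hi hS
      rw [snoc_curve, YS]
      have h1 : ∀ p : Fin (2 * i - 1 + 1) → Fin m → ℂ,
          mnr him S p * mnr him Sᶜ p = mnr him (TS S)ᶜ p * mnr him (TS S) p := by
        intro p
        rw [TS]
        split_ifs with h
        · rw [mul_comm]
        · rw [compl_compl]
      rw [h1, mnr_ofReal, mnr_ofReal, mR_expand him _ hT hl,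
        mR_const him _ hTc hlc (PR i m) _ (eR m 2)]
      simp only [eval_pow, eval_mul, eval_add, eval_C, eval_X, L]
      push_cast
      ring

end Vale.Agent.P181.H399
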